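import Vale.Agent.P372.Kraus
import Vale.Agent.P372.Check

open Matrix
open scoped ComplexOrder MatrixOrder Kronecker

namespace Vale.Agent.P372

lemma ev2_cast {R : Type} [CommSemiring R] (x : Fin 3 → ℕ) (μ : Fin 6) :
    ((ev2 x μ : ℕ) : R) = ev2 (fun a => (x a : R)) μ := by
  fin_cases μ <;> simp [ev2]

lemma ev3_cast {R : Type} [CommSemiring R] (x : Fin 3 → ℕ) (μ : Fin 10) :
    ((ev3 x μ : ℕ) : R) = ev3 (fun a => (x a : R)) μ := by
  fin_cases μ <;> simp [ev3]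

lemma no_cover {k : Type} [Field k] [CharP k pp] (ξ : Fin 6 → k) (η : Fin 10 → k)
    (j : Fin 6) (hj : ξ j ≠ 0) (j' : Fin 10) (hj' : η j' ≠ 0) :
    ¬ ∀ i, (∑ μ, ((ev2 (px i) μ : ℕ) : k) * ξ μ) * (∑ ν, ((ev3 (px i) ν : ℕ) : k) * η ν) = 0 := by
  classical
  intro h
  have h2 := chk_sound (k := k) 15 6 _ chk2 (by
    intro v hv
    obtain ⟨i, _, rfl⟩ := List.mem_map.mp hv
    simp) (fun i => if hi : i < 6 then ξ ⟨i, hi⟩ else 0) ⟨j, j.2, by simpa using hj⟩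
  have h3 := chk_sound (k := k) 15 10 _ chk3 (by
    intro v hv
    obtain ⟨i, _, rfl⟩ := List.mem_map.mp hv
    simp) (fun i => if hi : i < 10 then η ⟨i, hi⟩ else 0) ⟨j', j'.2, by simpa using hj'⟩
  rw [List.countP_map] at h2 h3
  have gen : ∀ (l : List (Fin 15)) (P Q : Fin 15 → Bool), (∀ i, P i = true ∨ Q i = true) →
      l.length ≤ l.countP P + l.countP Q := by
    intro l P Q hPQ
    induction l with
    | nil => simp
    | cons a l ih =>
      rw [List.countP_cons, List.countP_cons, List.length_cons]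
      rcases hPQ a with h | h <;> simp only [h, if_true] <;> omega
  have := gen (List.finRange 15) _ _ (fun i => show
      ((fun v => decide (lev v (fun i => if hi : i < 6 then ξ ⟨i, hi⟩ else 0) = 0)) ∘
        fun i => List.ofFn (ev2 (px i))) i = true ∨
      ((fun v => decide (lev v (fun i => if hi : i < 10 then η ⟨i, hi⟩ else 0) = 0)) ∘
        fun i => List.ofFn (ev3 (px i))) i = true by
    simp only [Function.comp, decide_eq_true_eq, lev_ofFn, Fin.is_lt, dite_true, Fin.eta]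
    exact mul_eq_zero.mp (h i))
  rw [List.length_finRange] at this
  omega

lemma ex_val : ∃ V : ValuationSubring ℂ, ((pp : ℕ) : ℂ) ∈ V.nonunits := by
  have hI : (Ideal.span {((pp : ℕ) : (⊥ : Subring ℂ))}) ≠ ⊤ := by
    rw [Ne, Ideal.eq_top_iff_one, Ideal.mem_span_singleton']
    rintro ⟨⟨a, ha⟩, h⟩
    obtain ⟨z, rfl⟩ := Subring.mem_bot.mp ha
    have h1 : (z : ℂ) * (pp : ℕ) = 1 := by simpa using congrArg Subtype.val h
    have h2 : z * (pp : ℕ) = 1 := by exact_mod_cast h1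
    have h3 : ((pp : ℕ) : ℤ) ∣ 1 := Dvd.intro_left z h2
    revert h3; decide
  obtain ⟨V, -, hV⟩ := Ideal.image_subset_nonunits_valuationSubring _ hI
  exact ⟨V, hV ⟨_, Ideal.mem_span_singleton_self _, by simp⟩⟩

lemma ex_scale (V : ValuationSubring ℂ) {n : ℕ} (ξ : Fin n → ℂ) (j0 : Fin n) (h0 : ξ j0 ≠ 0) :
    ∃ (j : Fin n) (c : ℂ) (ξ' : Fin n → V), c ≠ 0 ∧ ξ' j = 1 ∧ ∀ i, ξ i = c * ξ' i := by
  obtain ⟨j, -, hj⟩ := Finset.exists_max_image Finset.univ (fun i => V.valuation (ξ i))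
    ⟨j0, Finset.mem_univ _⟩
  have hne : ξ j ≠ 0 := by
    intro h
    have := hj j0 (Finset.mem_univ _)
    rw [h, map_zero, le_zero_iff, map_eq_zero] at this
    exact h0 this
  have hm : ∀ i, ξ i / ξ j ∈ V := by
    intro i
    rw [← V.valuation_le_one_iff, map_div₀, div_le_one₀ (zero_lt_iff.mpr ((map_ne_zero _).mpr hne))]
    exact hj i (Finset.mem_univ _)
  refine ⟨j, ξ j, fun i => ⟨ξ i / ξ j, hm i⟩, hne, Subtype.ext (by simp [hne]), fun i => ?_⟩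
  simp only
  field_simp

lemma no_product (ξ : Fin 6 → ℂ) (η : Fin 10 → ℂ) (j0 : Fin 6) (h0 : ξ j0 ≠ 0) (j1 : Fin 10)
    (h1 : η j1 ≠ 0) :
    ¬ ∀ i, (Dd : ℂ) * ((∑ μ, ((ev2 (px i) μ : ℕ) : ℂ) * ξ μ) *
        (∑ ν, ((ev3 (px i) ν : ℕ) : ℂ) * η ν)) =
      ((pp : ℕ) : ℂ) * ∑ l, (Nn i l : ℂ) * ((∑ μ, ((ev2 (pu l) μ : ℕ) : ℂ) * ξ μ) *
        (∑ ν, ((ev3 (pu l) ν : ℕ) : ℂ) * η ν)) := by
  intro h
  obtain ⟨V, hV⟩ := ex_val
  obtain ⟨j, c, ξ', hc, hj, hξ⟩ := ex_scale V ξ j0 h0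
  obtain ⟨j', c', η', hc', hj', hη⟩ := ex_scale V η j1 h1
  set φ := IsLocalRing.residue V with hφ
  have hp : ((pp : ℕ) : IsLocalRing.ResidueField V) = 0 := by
    rw [← map_natCast φ, hφ, IsLocalRing.residue_eq_zero_iff, ← V.coe_mem_nonunits_iff]
    simpa using hV
  have hprime : Nat.Prime pp := by unfold pp; norm_num
  have : CharP (IsLocalRing.ResidueField V) pp := (CharP.charP_iff_prime_eq_zero hprime).mpr hp
  have hD : ((Dd : ℤ) : IsLocalRing.ResidueField V) ≠ 0 := by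
    rw [Ne, CharP.intCast_eq_zero_iff _ pp]; decide
  refine no_cover (fun μ => φ (ξ' μ)) (fun ν => φ (η' ν)) j (by simp [hj]) j' (by simp [hj'])
    fun i => ?_
  have e : (Dd : V) * ((∑ μ, ((ev2 (px i) μ : ℕ) : V) * ξ' μ) *
        (∑ ν, ((ev3 (px i) ν : ℕ) : V) * η' ν)) =
      ((pp : ℕ) : V) * ∑ l, (Nn i l : V) * ((∑ μ, ((ev2 (pu l) μ : ℕ) : V) * ξ' μ) *
        (∑ ν, ((ev3 (pu l) ν : ℕ) : V) * η' ν)) := by
    apply Subtype.ext
    have hi := h i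
    have s2 : ∀ x : Fin 3 → ℕ, ∑ μ, ((ev2 x μ : ℕ) : ℂ) * ξ μ
        = c * ∑ μ, ((ev2 x μ : ℕ) : ℂ) * ξ' μ := by
      intro x; rw [Finset.mul_sum]
      exact Finset.sum_congr rfl fun μ _ => by rw [hξ]; ring
    have s3 : ∀ x : Fin 3 → ℕ, ∑ μ, ((ev3 x μ : ℕ) : ℂ) * η μ
        = c' * ∑ μ, ((ev3 x μ : ℕ) : ℂ) * η' μ := by
      intro x; rw [Finset.mul_sum]
      exact Finset.sum_congr rfl fun μ _ => by rw [hη]; ring
    simp only [s2, s3] at hi
    push_cast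
    apply mul_left_cancel₀ (mul_ne_zero hc hc')
    have s4 : ∑ l, (Nn i l : ℂ) * ((c * ∑ μ, ((ev2 (pu l) μ : ℕ) : ℂ) * ξ' μ) *
        (c' * ∑ ν, ((ev3 (pu l) ν : ℕ) : ℂ) * η' ν)) =
        c * c' * ∑ l, (Nn i l : ℂ) * ((∑ μ, ((ev2 (pu l) μ : ℕ) : ℂ) * ξ' μ) *
        (∑ ν, ((ev3 (pu l) ν : ℕ) : ℂ) * η' ν)) := by
      rw [Finset.mul_sum]
      exact Finset.sum_congr rfl fun l _ => by ring
    rw [s4] at hi
    linear_combination hi
  have e' := congrArg φ e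
  rw [map_mul, map_mul, map_mul φ (pp : V), map_natCast, hp, zero_mul, map_intCast] at e'
  have e2 := (mul_eq_zero.mp e').resolve_left hD
  simpa only [map_sum, map_mul, map_natCast] using e2

/-- Kraus operators of the seed map -/
noncomputable def K0 (e : Fin 6) : Matrix (Fin 3) (Fin 5) ℂ := Matrix.of fun a j => (Mz a e j : ℂ)

lemma K0_PT : PT K0 := by
  intro a a' c c'
  have := congrArg (Int.cast : ℤ → ℂ) (Mz_sym a a' c c')
  simpa [K0] using this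

def mon2 (a : Fin 2 → Fin 3) : Fin 6 := ![![0, 3, 1], ![3, 5, 4], ![1, 4, 2]] (a 0) (a 1)

def mon3 (a : Fin 3 → Fin 3) : Fin 10 :=
  ![![![0, 4, 1], ![4, 7, 5], ![1, 5, 2]], ![![4, 7, 5], ![7, 9, 8], ![5, 8, 6]],
    ![![1, 5, 2], ![5, 8, 6], ![2, 6, 3]]] (a 0) (a 1) (a 2)

lemma ev2_mon (x : Fin 3 → ℂ) (a : Fin 2 → Fin 3) : ev2 x (mon2 a) = ∏ i, x (a i) := by
  rw [Fin.prod_univ_two]
  unfold mon2
  generalize a 0 = p
  generalize a 1 = q
  fin_cases p <;> fin_cases q <;>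
    simp [ev2, -mul_eq_mul_right_iff, -mul_eq_mul_left_iff] <;> ring

lemma ev3_mon (x : Fin 3 → ℂ) (a : Fin 3 → Fin 3) : ev3 x (mon3 a) = ∏ i, x (a i) := by
  rw [Fin.prod_univ_three]
  unfold mon3
  generalize a 0 = p
  generalize a 1 = q
  generalize a 2 = r
  fin_cases p <;> fin_cases q <;> fin_cases r <;>
    simp [ev3, -mul_eq_mul_right_iff, -mul_eq_mul_left_iff] <;> ring

/-- collect coefficients -/
def col {N d : ℕ} (mon : (Fin N → Fin 3) → Fin d) : Matrix (Fin d) (Fin N → Fin 3) ℂ :=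
  Matrix.of fun μ a => if mon a = μ then 1 else 0

noncomputable def KA (e : Fin 2 → Fin 6) : Matrix (Fin 6) (Fin 2 → Fin 5) ℂ :=
  col mon2 * pw K0 2 e

noncomputable def KB (e : Fin 3 → Fin 6) : Matrix (Fin 10) (Fin 3 → Fin 5) ℂ :=
  col mon3 * pw K0 3 e

lemma KA_PT : PT KA := (K0_PT.pw 2).left _
lemma KB_PT : PT KB := (K0_PT.pw 3).left _

noncomputable def eps (c : (Fin 2 → Fin 5) × (Fin 3 → Fin 5)) : ℂ :=
  (Matrix.of fun i : Fin 5 => (Pi.single (Fin.append c.1 c.2 i) 1 : Fin 5 → ℂ)).det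

noncomputable def vv (e : (Fin 2 → Fin 6) × (Fin 3 → Fin 6)) : Fin 6 × Fin 10 → ℂ :=
  kr KA KB e *ᵥ eps

lemma col_pair {N d : ℕ} (mon : (Fin N → Fin 3) → Fin d) (ev : Fin d → ℂ) (x : Fin 3 → ℕ)
    (h : ∀ a, ev (mon a) = ∏ i, (x (a i) : ℂ)) (e : Fin N → Fin 6) (c : Fin N → Fin 5) :
    ∑ μ, ev μ * (col mon * pw K0 N e) μ c = ∏ i, (Mx x (e i) (c i) : ℂ) := by
  have h1 : ∀ i, (Mx x (e i) (c i) : ℂ) = ∑ a, (x a : ℂ) * K0 (e i) a (c i) := by
    intro i; simp [Mx, K0, Fin.sum_univ_three]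
  simp only [h1]
  rw [Finset.prod_univ_sum, Fintype.piFinset_univ]
  simp only [Matrix.mul_apply, Finset.mul_sum]
  rw [Finset.sum_comm]
  refine Finset.sum_congr rfl fun a _ => ?_
  simp only [col, Matrix.of_apply, ite_mul, one_mul, zero_mul, mul_ite, mul_zero,
    Finset.sum_ite_eq, Finset.mem_univ, if_true, h, pw, Finset.prod_mul_distrib]

lemma det_expand {n : Type} [Fintype n] [DecidableEq n] (r : n → n → ℂ) :
    (Matrix.of r).det = ∑ j : n → n, (∏ i, r i (j i)) *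
      (Matrix.of fun i : n => (Pi.single (j i) 1 : n → ℂ)).det := by
  have h1 : r = fun i => ∑ k, r i k • (Pi.single k 1 : n → ℂ) := by
    funext i l
    simp [Finset.sum_apply, Pi.single_apply]
  have h2 := (detRowAlternating (n := n) (R := ℂ)).toMultilinearMap.map_sum
    (fun i k => r i k • (Pi.single k 1 : n → ℂ))
  have h3 : (Matrix.of r).det = (detRowAlternating (n := n) (R := ℂ)).toMultilinearMap
      (fun i => ∑ k, r i k • (Pi.single k 1 : n → ℂ)) := by rw [← h1]; rfl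
  rw [h3, h2]
  refine Finset.sum_congr rfl fun j _ => ?_
  exact (detRowAlternating (n := n) (R := ℂ)).toMultilinearMap.map_smul_univ
    (fun i => r i (j i)) (fun i => (Pi.single (j i) 1 : n → ℂ))

lemma vv_pair (x : Fin 3 → ℕ) (e : (Fin 2 → Fin 6) × (Fin 3 → Fin 6)) :
    ∑ z : Fin 6 × Fin 10, ((ev2 x z.1 : ℕ) : ℂ) * ((ev3 x z.2 : ℕ) : ℂ) * vv e z
      = ((Matrix.of fun a b => Mx x (Fin.append e.1 e.2 a) b).det : ℤ) := by
  have hA := col_pair mon2 (fun μ => ((ev2 x μ : ℕ) : ℂ)) x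
    (fun a => by rw [ev2_cast, ev2_mon]) e.1
  have hB := col_pair mon3 (fun μ => ((ev3 x μ : ℕ) : ℂ)) x
    (fun a => by rw [ev3_cast, ev3_mon]) e.2
  have h1 : (((Matrix.of fun a b => Mx x (Fin.append e.1 e.2 a) b).det : ℤ) : ℂ)
      = (Matrix.of fun a b => ((Mx x (Fin.append e.1 e.2 a) b : ℤ) : ℂ)).det := by
    rw [Int.cast_det]; rfl
  rw [h1, det_expand, ← (Fin.appendEquiv 2 3).sum_comp]
  simp only [vv, mulVec, dotProduct, Finset.mul_sum]
  rw [Finset.sum_comm]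
  refine Finset.sum_congr rfl fun c _ => ?_
  have h2 : ∏ i : Fin 5, ((Mx x (Fin.append e.1 e.2 i) (Fin.appendEquiv 2 3 c i) : ℤ) : ℂ)
      = (∏ i, (Mx x (e.1 i) (c.1 i) : ℂ)) * ∏ i, (Mx x (e.2 i) (c.2 i) : ℂ) := by
    rw [Fin.prod_univ_add (a := 2) (b := 3)]
    simp only [Fin.appendEquiv_apply, Fin.append_left, Fin.append_right]
  rw [h2, ← hA, ← hB, Finset.sum_mul_sum, Finset.sum_mul, Fintype.sum_prod_type]
  refine Finset.sum_congr rfl fun μ _ => ?_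
  rw [Finset.sum_mul]
  refine Finset.sum_congr rfl fun ν _ => ?_
  simp only [kr, kroneckerMap_apply, KA, KB, eps, Fin.appendEquiv_apply]
  ring

lemma det_cases (I : Fin 5 → Fin 6) : ∃ (s : ℤ) (J : Fin 6), ∀ x : Fin 3 → ℕ,
    (Matrix.of fun a b => Mx x (I a) b).det
      = s * lap 5 (fun a b => Mx x (J.succAbove a) b) := by
  by_cases hI : Function.Injective I
  · have hns : ¬ Function.Surjective I := by
      intro hs
      have := Fintype.card_le_of_surjective I hs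
      simp at this
    obtain ⟨J, hJ⟩ : ∃ J, ∀ a, I a ≠ J := by
      unfold Function.Surjective at hns
      push Not at hns
      exact hns
    choose σ hσ using fun a => Fin.exists_succAbove_eq (hJ a)
    have hσi : Function.Injective σ := fun a b h => hI (by rw [← hσ, ← hσ, h])
    let τ : Equiv.Perm (Fin 5) := Equiv.ofBijective σ (Finite.injective_iff_bijective.mp hσi)
    refine ⟨Equiv.Perm.sign τ, J, fun x => ?_⟩
    rw [lap_eq]
    have := det_permute τ (Matrix.of fun a b => Mx x (J.succAbove a) b)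
    simp only [Int.cast_id] at this
    rw [← this]
    congr 1
    ext a b
    simp [τ, hσ]
  · refine ⟨0, 0, fun x => ?_⟩
    unfold Function.Injective at hI
    push Not at hI
    obtain ⟨a, b, hab, hne⟩ := hI
    rw [zero_mul]
    exact det_zero_of_row_eq hne (by funext c; simp [hab])

/-- the test vectors -/
noncomputable def uu (i : Fin 15) (z : Fin 6 × Fin 10) : ℂ :=
  (Dd : ℂ) * (((ev2 (px i) z.1 : ℕ) : ℂ) * ((ev3 (px i) z.2 : ℕ) : ℂ)) -
    ((pp : ℕ) : ℂ) * ∑ l, (Nn i l : ℂ) * (((ev2 (pu l) z.1 : ℕ) : ℂ) * ((ev3 (pu l) z.2 : ℕ) : ℂ))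

lemma uu_pair (i : Fin 15) (f : Fin 6 × Fin 10 → ℂ) : ∑ z, uu i z * f z =
    (Dd : ℂ) * (∑ z : Fin 6 × Fin 10, ((ev2 (px i) z.1 : ℕ) : ℂ) * ((ev3 (px i) z.2 : ℕ) : ℂ) * f z)
    - ((pp : ℕ) : ℂ) * ∑ l, (Nn i l : ℂ) *
      ∑ z : Fin 6 × Fin 10, ((ev2 (pu l) z.1 : ℕ) : ℂ) * ((ev3 (pu l) z.2 : ℕ) : ℂ) * f z := by
  simp only [uu, sub_mul, Finset.sum_sub_distrib, Finset.mul_sum, Finset.sum_mul]
  congr 1
  · exact Finset.sum_congr rfl fun z _ => by ring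
  · rw [Finset.sum_comm]
    exact Finset.sum_congr rfl fun l _ => Finset.sum_congr rfl fun z _ => by ring

lemma uu_star (i : Fin 15) : star (uu i) = uu i := by
  funext z
  simp [uu]

lemma uu_vv (i : Fin 15) (e : (Fin 2 → Fin 6) × (Fin 3 → Fin 6)) : ∑ z, uu i z * vv e z = 0 := by
  rw [uu_pair]
  simp only [vv_pair]
  obtain ⟨s, J, h⟩ := det_cases (Fin.append e.1 e.2)
  simp only [h, dx_eq, du_eq]
  have := congrArg (Int.cast : ℤ → ℂ) (rel i J)
  push_cast at this ⊢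
  have e2 : ∑ l, (Nn i l : ℂ) * ((s : ℂ) * (du l J : ℂ)) = s * ∑ l, (Nn i l : ℂ) * (du l J : ℂ) := by
    rw [Finset.mul_sum]; exact Finset.sum_congr rfl fun l _ => by ring
  rw [e2]
  linear_combination (s : ℂ) * this

lemma vv_ne : ∃ e z, vv e z ≠ 0 := by
  by_contra hc
  push Not at hc
  have h := vv_pair (pu 0) (![1, 2], ![3, 4, 5])
  simp only [hc, mul_zero, Finset.sum_const_zero] at h
  have h2 : (Matrix.of fun a b => Mx (pu 0) (Fin.append ![1, 2] ![3, 4, 5] a) b).det = 0 := by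
    exact_mod_cast h.symm
  rw [← lap_eq] at h2
  revert h2
  decide +kernel

lemma not_prod {α : Matrix (Fin 6) (Fin 6) ℂ} {β : Matrix (Fin 10) (Fin 10) ℂ}
    (hα : α.trace = 1) (hβ : β.trace = 1) : ¬ ∀ i, (α ⊗ₖ β) *ᵥ uu i = 0 := by
  intro h
  obtain ⟨μ, hμ⟩ : ∃ μ, α μ μ ≠ 0 := by
    by_contra hc; push Not at hc
    simp [Matrix.trace, hc] at hα
  obtain ⟨ν, hν⟩ : ∃ ν, β ν ν ≠ 0 := by
    by_contra hc; push Not at hc
    simp [Matrix.trace, hc] at hβ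
  refine no_product (α μ) (β ν) μ hμ ν hν fun i => ?_
  have h1 := congrFun (h i) (μ, ν)
  have h2 : ∑ z, uu i z * (α μ z.1 * β ν z.2) = 0 := by
    simp only [mulVec, dotProduct, kroneckerMap_apply, Pi.zero_apply] at h1
    rw [← h1]
    exact Finset.sum_congr rfl fun z _ => by ring
  rw [uu_pair] at h2
  have h3 : ∀ x : Fin 3 → ℕ, ∑ z : Fin 6 × Fin 10,
      ((ev2 x z.1 : ℕ) : ℂ) * ((ev3 x z.2 : ℕ) : ℂ) * (α μ z.1 * β ν z.2)
      = (∑ a, ((ev2 x a : ℕ) : ℂ) * α μ a) * (∑ b, ((ev3 x b : ℕ) : ℂ) * β ν b) := by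
    intro x
    rw [Finset.sum_mul_sum, Fintype.sum_prod_type]
    exact Finset.sum_congr rfl fun a _ => Finset.sum_congr rfl fun b _ => by ring
  simp only [h3] at h2
  exact sub_eq_zero.mp h2

end Vale.Agent.P372
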