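import Vale.Agent.P372.LinAlg

open Matrix
open scoped ComplexOrder MatrixOrder Kronecker

namespace Vale.Agent.P372

/-- the Gram tensor of the Kraus family is invariant under transposing the input side -/
def PT {ι A C : Type} [Fintype ι] (K : ι → Matrix A C ℂ) : Prop :=
  ∀ a a' c c', ∑ e, star (K e a c) * K e a' c' = ∑ e, star (K e a c') * K e a' c

/-- Heisenberg picture map -/
noncomputable def Th {ι A C : Type} [Fintype ι] [Fintype A] (K : ι → Matrix A C ℂ)
    (X : Matrix A A ℂ) : Matrix C C ℂ := ∑ e, (K e)ᴴ * X * K e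

/-- product family -/
def kr {ι κ A B C D : Type} (K : ι → Matrix A C ℂ) (L : κ → Matrix B D ℂ) :
    ι × κ → Matrix (A × B) (C × D) ℂ := fun e => K e.1 ⊗ₖ L e.2

/-- tensor power family -/
def pw {ι A C : Type} (K : ι → Matrix A C ℂ) (N : ℕ) :
    (Fin N → ι) → Matrix (Fin N → A) (Fin N → C) ℂ :=
  fun e => Matrix.of fun a c => ∏ i, K (e i) (a i) (c i)

variable {ι κ A B C D A' E : Type} [Fintype ι] [Fintype κ]

lemma Th_apply [Fintype A] (K : ι → Matrix A C ℂ) (X : Matrix A A ℂ) (c c' : C) :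
    Th K X c c' = ∑ a, ∑ a', X a a' * ∑ e, star (K e a c) * K e a' c' := by
  simp only [Th, Matrix.sum_apply, Matrix.mul_apply, conjTranspose_apply, Finset.sum_mul,
    Finset.mul_sum]
  rw [Finset.sum_comm]
  conv_rhs => rw [Finset.sum_comm]
  refine Finset.sum_congr rfl fun a' _ => ?_
  rw [Finset.sum_comm]
  refine Finset.sum_congr rfl fun a _ => Finset.sum_congr rfl fun e _ => by ring

lemma Th_transpose [Fintype A] {K : ι → Matrix A C ℂ} (hK : PT K) (X : Matrix A A ℂ) :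
    (Th K X)ᵀ = Th K X := by
  ext c c'
  rw [transpose_apply, Th_apply, Th_apply]
  exact Finset.sum_congr rfl fun a _ => Finset.sum_congr rfl fun a' _ => by rw [hK]

lemma PT.kr {K : ι → Matrix A C ℂ} {L : κ → Matrix B D ℂ} (hK : PT K) (hL : PT L) :
    PT (kr K L) := by
  intro a a' c c'
  have h : ∀ (c c' : C × D), ∑ e, star (P372.kr K L e a c) * P372.kr K L e a' c'
      = (∑ e, star (K e a.1 c.1) * K e a'.1 c'.1) * ∑ e, star (L e a.2 c.2) * L e a'.2 c'.2 := by
    intro c c'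
    rw [Fintype.sum_prod_type, Finset.sum_mul_sum]
    refine Finset.sum_congr rfl fun e _ => Finset.sum_congr rfl fun f _ => ?_
    simp only [P372.kr, kroneckerMap_apply, star_mul']; ring
  rw [h, h, hK, hL]

lemma PT.pw [DecidableEq ι] {K : ι → Matrix A C ℂ} (hK : PT K) (N : ℕ) : PT (pw K N) := by
  intro a a' c c'
  have h : ∀ (c c' : Fin N → C), ∑ e, star (P372.pw K N e a c) * P372.pw K N e a' c'
      = ∏ i, ∑ e, star (K e (a i) (c i)) * K e (a' i) (c' i) := by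
    intro c c'
    rw [Finset.prod_univ_sum]
    simp only [Fintype.piFinset_univ, P372.pw, Matrix.of_apply, star_prod,
      Finset.prod_mul_distrib]
  rw [h, h]
  exact Finset.prod_congr rfl fun i _ => hK _ _ _ _

lemma PT.left [Fintype A] {K : ι → Matrix A C ℂ} (hK : PT K) (S : Matrix A' A ℂ) :
    PT (fun e => S * K e) := by
  intro a a' c c'
  have h : ∀ (c c' : C), ∑ e, star ((S * K e) a c) * (S * K e) a' c'
      = ∑ b, ∑ b', star (S a b) * S a' b' * ∑ e, star (K e b c) * K e b' c' := by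
    intro c c'
    simp only [Matrix.mul_apply, star_sum, star_mul', Finset.sum_mul, Finset.mul_sum]
    rw [Finset.sum_comm]
    conv_rhs => rw [Finset.sum_comm]
    refine Finset.sum_congr rfl fun b' _ => ?_
    rw [Finset.sum_comm]
    refine Finset.sum_congr rfl fun b _ => Finset.sum_congr rfl fun e _ => by ring
  rw [h, h]
  exact Finset.sum_congr rfl fun b _ => Finset.sum_congr rfl fun b' _ => by rw [hK]

lemma PT.sub {K : ι → Matrix A C ℂ} (hK : PT K) (f : A' → A) :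
    PT (fun e => (K e).submatrix f id) := fun a a' c c' => hK (f a) (f a') c c'

lemma Th_kr [Fintype A] [Fintype B] (K : ι → Matrix A C ℂ) (L : κ → Matrix B D ℂ)
    (X : Matrix A A ℂ) (Y : Matrix B B ℂ) : Th (kr K L) (X ⊗ₖ Y) = Th K X ⊗ₖ Th L Y := by
  have : Th (kr K L) (X ⊗ₖ Y) = ∑ e, ∑ f, ((K e)ᴴ * X * K e) ⊗ₖ ((L f)ᴴ * Y * L f) := by
    simp only [Th, kr, Fintype.sum_prod_type, conjTranspose_kronecker, ← mul_kronecker_mul]
  rw [this]
  ext u v
  simp only [Th, Matrix.sum_apply, kroneckerMap_apply, Finset.sum_mul_sum]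

lemma Th_psd [Fintype A] [Fintype C] (K : ι → Matrix A C ℂ) {X : Matrix A A ℂ}
    (hX : X.PosSemidef) : (Th K X).PosSemidef :=
  posSemidef_sum _ fun e _ => hX.conjTranspose_mul_mul_same (K e)

lemma Blk.th [Fintype A] [Fintype C] (K : ι → Matrix A C ℂ) {P Q M : Matrix A A ℂ}
    (h : Blk P Q M) : Blk (Th K P) (Th K Q) (Th K M) :=
  Blk.sum _ fun e => h.conj (K e)

lemma pinv [Fintype A] [Fintype E] [DecidableEq A] [DecidableEq E] {P : Matrix A A ℂ}
    (hP : P.PosSemidef) (V : Matrix A E ℂ) :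
    ∃ (s : Matrix E E ℂ) (G : Matrix A E ℂ), s.PosSemidef ∧ s * s = Vᴴ * P * V ∧
      Vᴴ * G = s ∧ (P - G * Gᴴ).PosSemidef := by
  have hσ : (Vᴴ * P * V).PosSemidef := hP.conjTranspose_mul_mul_same V
  set σ := Vᴴ * P * V with hσd
  set N := cfc (fun x : ℝ => (Real.sqrt x)⁻¹) σ with hN
  have hNh : N.IsHermitian := fc_herm _ _
  have h1 : σ * N = cfc Real.sqrt σ := by
    have : σ * N = cfc (fun x : ℝ => x) σ * N := by rw [fc_id hσ.1]
    rw [this, hN, fc_mul]
    refine fc_congr hσ _ _ fun x hx => ?_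
    rcases hx.eq_or_lt with h | h
    · simp [← h]
    · have := Real.sqrt_pos.mpr h
      field_simp
      exact (Real.sq_sqrt hx).symm
  have h2 : N * N * σ * (N * N) = N * N := by
    have : N * N * σ * (N * N) = N * N * cfc (fun x : ℝ => x) σ * (N * N) := by
      rw [fc_id hσ.1]
    rw [this, hN]
    simp only [fc_mul]
    refine fc_congr hσ _ _ fun x hx => ?_
    rcases hx.eq_or_lt with h | h
    · simp [← h]
    · have := Real.sqrt_pos.mpr h
      field_simp
      exact (Real.sq_sqrt hx).symm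
  refine ⟨cfc Real.sqrt σ, P * V * N, fc_psd _ _ Real.sqrt_nonneg, ?_, ?_, ?_⟩
  · rw [fc_mul]
    conv_rhs => rw [← fc_id hσ.1]
    exact fc_congr hσ _ _ fun x hx => Real.mul_self_sqrt hx
  · rw [← h1, hσd]; simp only [Matrix.mul_assoc]
  · have := hP.conjTranspose_mul_mul_same (1 - V * (N * N) * Vᴴ * P)
    convert this using 1
    have h3 : P * V * (N * N * σ * (N * N)) * Vᴴ * P = P * V * (N * N) * Vᴴ * P := by rw [h2]
    simp only [conjTranspose_sub, conjTranspose_mul, conjTranspose_one, hNh.eq, hP.1.eq,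
      conjTranspose_conjTranspose, Matrix.sub_mul, Matrix.mul_sub, Matrix.one_mul,
      Matrix.mul_one]
    simp only [hσd, Matrix.mul_assoc] at h3 ⊢
    rw [h3]; abel

lemma key_ineq [Fintype A] [Fintype B] [Fintype C] [Fintype D] [Fintype E]
    [DecidableEq A] [DecidableEq B] [DecidableEq C] [DecidableEq D] [DecidableEq E]
    {K : ι → Matrix A C ℂ} {L : κ → Matrix B D ℂ} (hK : PT K) (hL : PT L) (w : C × D → ℂ)
    (V : Matrix (A × B) E ℂ)
    (hV : ∀ X, (Vᴴ * X * V).trace = star w ⬝ᵥ Th (kr K L) X *ᵥ w)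
    {A0 A1 : Matrix A A ℂ} {B0 B1 : Matrix B B ℂ} (hA0 : A0.PosSemidef) (hA1 : A1.PosSemidef)
    (hB0 : B0.PosSemidef) (hB1 : B1.PosSemidef) :
    ∃ W : Matrix E E ℂ, (1 - W).PosSemidef ∧ (1 + W).PosSemidef ∧
      (Vᴴ * (A0 ⊗ₖ B0) * V).trace.re + (Vᴴ * (A1 ⊗ₖ B1) * V).trace.re
        - (Vᴴ * (A0 ⊗ₖ B1) * V).trace.re - (Vᴴ * (A1 ⊗ₖ B0) * V).trace.re
      ≤ (W * (Vᴴ * (A0 ⊗ₖ B0) * V)).trace.re - (W * (Vᴴ * (A1 ⊗ₖ B1) * V)).trace.re := by
  obtain ⟨s, G, hs, hss, hG, hGp⟩ := pinv (hA0.kronecker hB0) V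
  obtain ⟨t, G', ht, htt, hG', hGp'⟩ := pinv (hA1.kronecker hB1) V
  obtain ⟨W, hW1, hW2, hW⟩ := powers_stormer hs ht
  refine ⟨W, hW1, hW2, ?_⟩
  rw [hss, htt] at hW
  have hb := (Blk.gram G G').add (Blk.diag hGp hGp')
  rw [add_sub_cancel, add_sub_cancel, add_zero] at hb
  have hz := hb.th (kr K L)
  have hz' := hz.flip (Th_transpose (hK.kr hL) _) (Th_transpose (hK.kr hL) _)
    (Th_transpose (hK.kr hL) _)
  have h2 := hz.add hz'
  rw [Th_kr, Th_kr] at h2
  have h3 := geo (Th_psd K hA0) (Th_psd K hA1) (Th_psd L hB0) (Th_psd L hB1)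
    (isHermitian_add_transpose_self _) h2 w
  rw [← Th_kr, ← Th_kr, ← hV, ← hV, add_mulVec, dotProduct_add, ← hV] at h3
  have e1 : (Vᴴ * (G * G'ᴴ) * V) = s * t := by
    calc Vᴴ * (G * G'ᴴ) * V = (Vᴴ * G) * (Vᴴ * G')ᴴ := by
          rw [conjTranspose_mul, conjTranspose_conjTranspose]; simp only [Matrix.mul_assoc]
      _ = s * t := by rw [hG, hG', ht.1.eq]
  have e2 : star w ⬝ᵥ (Th (kr K L) (G * G'ᴴ))ᴴ *ᵥ w
      = star (star w ⬝ᵥ (Th (kr K L) (G * G'ᴴ)) *ᵥ w) := by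
    rw [star_dotProduct, star_mulVec, conjTranspose_conjTranspose, dotProduct_mulVec]
  rw [e2, ← hV, e1] at h3
  simp only [Complex.add_re, Complex.star_def, Complex.conj_re] at h3
  linarith

end Vale.Agent.P372
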