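import Mathlib

open Matrix
open scoped ComplexOrder MatrixOrder Kronecker

namespace Vale.Agent.P372

variable {n m : Type} [Fintype n] [DecidableEq n] [Fintype m] [DecidableEq m]

omit [DecidableEq n] in
lemma tr_mul_nonneg {A B : Matrix n n ℂ} (hA : A.PosSemidef) (hB : B.PosSemidef) :
    0 ≤ (A * B).trace.re := by
  classical
  obtain ⟨C, rfl⟩ := CStarAlgebra.nonneg_iff_eq_star_mul_self.mp hA.nonneg
  have h := (hB.mul_mul_conjTranspose_same C).trace_nonneg
  rw [star_eq_conjTranspose, Matrix.mul_assoc, trace_mul_comm]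
  exact (Complex.nonneg_iff.mp h).1

lemma contOn (f : ℝ → ℝ) (A : Matrix n n ℂ) : ContinuousOn f (spectrum ℝ A) :=
  (Matrix.finite_real_spectrum).continuousOn f

lemma fc_mul (f g : ℝ → ℝ) (A : Matrix n n ℂ) :
    cfc f A * cfc g A = cfc (fun x => f x * g x) A :=
  (cfc_mul f g A (contOn f A) (contOn g A)).symm

lemma fc_add (f g : ℝ → ℝ) (A : Matrix n n ℂ) :
    cfc f A + cfc g A = cfc (fun x => f x + g x) A :=
  (cfc_add A f g (contOn f A) (contOn g A)).symm

lemma fc_sub (f g : ℝ → ℝ) (A : Matrix n n ℂ) :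
    cfc f A - cfc g A = cfc (fun x => f x - g x) A :=
  (cfc_sub f g A (contOn f A) (contOn g A)).symm

lemma fc_id {A : Matrix n n ℂ} (hA : A.IsHermitian) : cfc (fun x : ℝ => x) A = A :=
  cfc_id' ℝ A hA.isSelfAdjoint

lemma fc_one {A : Matrix n n ℂ} (hA : A.IsHermitian) : cfc (fun _ : ℝ => (1 : ℝ)) A = 1 :=
  cfc_const_one ℝ A hA.isSelfAdjoint

lemma fc_herm (f : ℝ → ℝ) (A : Matrix n n ℂ) : (cfc f A).IsHermitian :=
  (cfc_predicate f A : IsSelfAdjoint _)

lemma fc_psd (f : ℝ → ℝ) (A : Matrix n n ℂ) (hf : ∀ x, 0 ≤ f x) : (cfc f A).PosSemidef :=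
  (cfc_nonneg (fun x _ => hf x)).posSemidef

lemma fc_congr {A : Matrix n n ℂ} (hA : A.PosSemidef) (f g : ℝ → ℝ)
    (h : ∀ x, 0 ≤ x → f x = g x) : cfc f A = cfc g A :=
  cfc_congr fun x hx => h x (spectrum_nonneg_of_nonneg hA.nonneg hx)

/-- trace norm dominates the pairing with a Hermitian contraction -/
lemma tr_le_norm {X W : Matrix n n ℂ} (hX : X.IsHermitian) (h1 : (1 - W).PosSemidef)
    (h2 : (1 + W).PosSemidef) : (W * X).trace.re ≤ (CFC.sqrt (Xᴴ * X)).trace.re := by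
  set P := cfc (fun x : ℝ => max x 0) X with hP
  set N := cfc (fun x : ℝ => max (-x) 0) X with hN
  have hPp : P.PosSemidef := fc_psd _ _ fun x => le_max_right _ _
  have hNp : N.PosSemidef := fc_psd _ _ fun x => le_max_right _ _
  have hXe : X = P - N := by
    rw [hP, hN, fc_sub]
    conv_lhs => rw [← fc_id hX]
    congr 1; funext x
    rcases le_total x 0 with h | h
    · rw [max_eq_right h, max_eq_left (by linarith)]; ring
    · rw [max_eq_left h, max_eq_right (by linarith)]; ring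
  have hs : CFC.sqrt (Xᴴ * X) = P + N := by
    rw [CFC.sqrt_eq_iff _ _ (posSemidef_conjTranspose_mul_self X).nonneg (hPp.add hNp).nonneg]
    rw [hP, hN, fc_add, fc_mul, hX.eq]
    conv_rhs => rw [← fc_id hX, fc_mul]
    congr 1; funext x
    rcases le_total x 0 with h | h
    · rw [max_eq_right h, max_eq_left (by linarith)]; ring
    · rw [max_eq_left h, max_eq_right (by linarith)]; ring
  have a1 := tr_mul_nonneg h1 hPp
  have a2 := tr_mul_nonneg h2 hNp
  rw [hs]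
  have : W * X = W * P - W * N := by rw [← Matrix.mul_sub, ← hXe]
  rw [this]
  simp only [Matrix.sub_mul, Matrix.add_mul, Matrix.one_mul, trace_sub, trace_add,
    Complex.sub_re, Complex.add_re] at a1 a2 ⊢
  linarith

/-- Powers and Stormer -/
lemma powers_stormer {s t : Matrix n n ℂ} (hs : s.PosSemidef) (ht : t.PosSemidef) :
    ∃ W : Matrix n n ℂ, (1 - W).PosSemidef ∧ (1 + W).PosSemidef ∧
      (s * s).trace.re + (t * t).trace.re - 2 * (s * t).trace.re
        ≤ (W * (s * s)).trace.re - (W * (t * t)).trace.re := by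
  have hS : (s - t).IsHermitian := hs.1.sub ht.1
  set S := s - t with hSd
  set sg : ℝ → ℝ := fun x => if 0 ≤ x then 1 else -1 with hsg
  set W := cfc sg S with hW
  set P := cfc (fun x : ℝ => max x 0) S with hP
  set N := cfc (fun x : ℝ => max (-x) 0) S with hN
  have hPp : P.PosSemidef := fc_psd _ _ fun x => le_max_right _ _
  have hNp : N.PosSemidef := fc_psd _ _ fun x => le_max_right _ _
  have hXe : S = P - N := by
    rw [hP, hN, fc_sub]
    conv_lhs => rw [← fc_id hS]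
    congr 1; funext x
    rcases le_total x 0 with h | h
    · rw [max_eq_right h, max_eq_left (by linarith)]; ring
    · rw [max_eq_left h, max_eq_right (by linarith)]; ring
  have hWS : W * S = P + N := by
    rw [hP, hN, fc_add, hW]
    conv_lhs => rw [← fc_id hS]
    rw [fc_id hS]
    have : cfc sg S * S = cfc sg S * cfc (fun x : ℝ => x) S := by rw [fc_id hS]
    rw [this, fc_mul]
    congr 1; funext x
    by_cases h : 0 ≤ x
    · simp only [hsg, if_pos h]; rw [max_eq_left h, max_eq_right (by linarith)]; ring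
    · simp only [hsg, if_neg h]
      rw [max_eq_right (by linarith), max_eq_left (by linarith)]; ring
  have hSW : S * W = P + N := by
    have h1 : (W * S)ᴴ = (P + N)ᴴ := by rw [hWS]
    rw [conjTranspose_mul, hS.eq, (fc_herm sg S).eq, (hPp.add hNp).1.eq] at h1
    exact h1
  refine ⟨W, ?_, ?_, ?_⟩
  · rw [hW, ← fc_one hS, fc_sub]
    exact fc_psd _ _ fun x => by simp only [hsg]; split_ifs <;> norm_num
  · rw [hW, ← fc_one hS, fc_add]
    exact fc_psd _ _ fun x => by simp only [hsg]; split_ifs <;> norm_num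
  · have a1 := tr_mul_nonneg hPp ht
    have a2 := tr_mul_nonneg hNp hs
    have e1 : (W * (s * s)).trace - (W * (t * t)).trace
        = (W * S * s).trace + (S * W * t).trace := by
      have : (S * W * t).trace = (W * t * S).trace := by
        rw [Matrix.mul_assoc S, trace_mul_comm]
      rw [this, hSd]
      simp only [Matrix.mul_sub, Matrix.sub_mul, Matrix.mul_assoc, trace_sub]
      ring
    have e2 : (s * s).trace + (t * t).trace - 2 * (s * t).trace
        = (S * s).trace - (S * t).trace := by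
      rw [hSd]
      simp only [Matrix.sub_mul, trace_sub]
      rw [trace_mul_comm t s]; ring
    have e1' := congrArg Complex.re e1
    have e2' := congrArg Complex.re e2
    rw [hWS, hSW] at e1'
    rw [hXe] at e2'
    simp only [Matrix.add_mul, Matrix.sub_mul, trace_add, trace_sub, Complex.add_re,
      Complex.sub_re, Complex.mul_re, Complex.re_ofNat, Complex.im_ofNat, zero_mul,
      sub_zero] at e1' e2'
    linarith

lemma ex_real {z : ℂ} (h : 0 ≤ z) : ∃ a : ℝ, z = a :=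
  ⟨z.re, Complex.ext (by simp) (by simp [(Complex.nonneg_iff.mp h).2.symm])⟩

lemma le_of_sq_le {G H : Matrix n n ℂ} (hG : G.PosSemidef) (hH : H.IsHermitian)
    (h : (G * G - H * H).PosSemidef) : (G - H).PosSemidef := by
  have hA : (G - H).IsHermitian := hG.1.sub hH
  rw [hA.posSemidef_iff_eigenvalues_nonneg]
  intro i
  by_contra hneg
  have hμ : hA.eigenvalues i < 0 := lt_of_not_ge hneg
  set μ := hA.eigenvalues i with hμd
  set v : n → ℂ := ⇑(hA.eigenvectorBasis i) with hv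
  have hev : (G - H) *ᵥ v = (μ : ℂ) • v := by
    have := hA.mulVec_eigenvectorBasis i
    rw [this]; funext j; simp [hv, hμd]
  have hv0 : v ≠ 0 := by
    intro h0
    have := hA.eigenvectorBasis.orthonormal.1 i
    have h2 : hA.eigenvectorBasis i = 0 := by
      ext j; exact congrFun h0 j
    rw [h2] at this; simp at this
  have hHv : H *ᵥ v = G *ᵥ v - (μ : ℂ) • v := by
    rw [← hev, sub_mulVec]; abel
  have h1 := h.dotProduct_mulVec_nonneg v
  have h2 := hG.dotProduct_mulVec_nonneg v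
  have h3 : 0 < star v ⬝ᵥ v := dotProduct_star_self_pos_iff.mpr hv0
  have eH : star v ⬝ᵥ (H * H) *ᵥ v = star (H *ᵥ v) ⬝ᵥ (H *ᵥ v) := by
    rw [← mulVec_mulVec, dotProduct_mulVec, star_mulVec, hH.eq]
  have eG : star v ⬝ᵥ (G * G) *ᵥ v = star (G *ᵥ v) ⬝ᵥ (G *ᵥ v) := by
    rw [← mulVec_mulVec, dotProduct_mulVec, star_mulVec, hG.1.eq]
  have eGv : star (G *ᵥ v) ⬝ᵥ v = star v ⬝ᵥ G *ᵥ v := by
    rw [star_mulVec, hG.1.eq, dotProduct_mulVec]
  rw [sub_mulVec, dotProduct_sub, eH, eG, hHv] at h1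
  simp only [star_sub, star_smul, sub_dotProduct, dotProduct_sub, smul_dotProduct,
    dotProduct_smul, smul_eq_mul, eGv, Complex.star_def, Complex.conj_ofReal] at h1
  obtain ⟨a, ha⟩ := ex_real h2
  obtain ⟨b, hb⟩ := ex_real h3.le
  rw [ha] at h1 h2
  rw [hb] at h1 h3
  have h2' : 0 ≤ a := by exact_mod_cast h2
  have h3' : 0 < b := by exact_mod_cast h3
  have h1' := (Complex.nonneg_iff.mp h1).1
  simp only [Complex.sub_re, Complex.mul_re, Complex.ofReal_re, Complex.ofReal_im,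
    Complex.mul_im, mul_zero, zero_mul, sub_zero, add_zero] at h1'
  nlinarith [mul_pos (mul_pos_of_neg_of_neg hμ hμ) h3', mul_nonneg (neg_nonneg.mpr hμ.le) h2']

/-- block positivity -/
def Blk (P Q M : Matrix n n ℂ) : Prop := (fromBlocks P M Mᴴ Q).PosSemidef

omit [DecidableEq n] [DecidableEq m] in
lemma Blk.conj {P Q M : Matrix n n ℂ} (h : Blk P Q M) (K : Matrix n m ℂ) :
    Blk (Kᴴ * P * K) (Kᴴ * Q * K) (Kᴴ * M * K) := by
  have := h.conjTranspose_mul_mul_same (fromBlocks K 0 0 K)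
  rw [fromBlocks_conjTranspose, fromBlocks_multiply, fromBlocks_multiply] at this
  unfold Blk
  simpa [Matrix.mul_assoc] using this

omit [DecidableEq n] [DecidableEq m] in
lemma Blk.test {P Q M : Matrix n n ℂ} (h : Blk P Q M) (X Y : Matrix n m ℂ) :
    (Xᴴ * P * X + Yᴴ * Mᴴ * X + (Xᴴ * M * Y + Yᴴ * Q * Y)).PosSemidef := by
  have := h.conjTranspose_mul_mul_same (fromRows X Y)
  rw [conjTranspose_fromRows_eq_fromCols_conjTranspose, fromCols_mul_fromBlocks,
    fromCols_mul_fromRows] at this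
  simpa [Matrix.add_mul] using this

omit [Fintype n] [DecidableEq n] in
lemma Blk.add {P Q M P' Q' M' : Matrix n n ℂ} (h : Blk P Q M) (h' : Blk P' Q' M') :
    Blk (P + P') (Q + Q') (M + M') := by
  have := PosSemidef.add h h'
  rw [fromBlocks_add] at this
  unfold Blk
  rwa [conjTranspose_add]

omit [Fintype n] [DecidableEq n] in
lemma Blk.zero : Blk (0 : Matrix n n ℂ) 0 0 := by
  unfold Blk
  rw [conjTranspose_zero, fromBlocks_zero]
  exact PosSemidef.zero

omit [Fintype n] [DecidableEq n] in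
lemma Blk.sum {ι : Type} (s : Finset ι) {P Q M : ι → Matrix n n ℂ}
    (h : ∀ i, Blk (P i) (Q i) (M i)) : Blk (∑ i ∈ s, P i) (∑ i ∈ s, Q i) (∑ i ∈ s, M i) := by
  classical
  induction s using Finset.induction_on with
  | empty => simpa using Blk.zero
  | insert a s ha ih =>
    rw [Finset.sum_insert ha, Finset.sum_insert ha, Finset.sum_insert ha]
    exact (h a).add ih

omit [Fintype n] [DecidableEq n] in
lemma Blk.flip {P Q M : Matrix n n ℂ} (h : Blk P Q M) (hP : Pᵀ = P) (hQ : Qᵀ = Q)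
    (hM : Mᵀ = M) : Blk P Q Mᴴ := by
  have := PosSemidef.transpose h
  rw [fromBlocks_transpose, hP, hQ, hM] at this
  unfold Blk
  have e : Mᴴᵀ = Mᴴ := by
    ext i j
    have := congrFun (congrFun hM i) j
    simp only [transpose_apply, conjTranspose_apply] at this ⊢
    rw [this]
  rw [conjTranspose_conjTranspose, ← e]
  exact this

omit [DecidableEq n] in
lemma Blk.diag {P Q : Matrix n n ℂ} (hP : P.PosSemidef) (hQ : Q.PosSemidef) : Blk P Q 0 := by
  classical
  obtain ⟨B, rfl⟩ := CStarAlgebra.nonneg_iff_eq_star_mul_self.mp hP.nonneg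
  obtain ⟨C, rfl⟩ := CStarAlgebra.nonneg_iff_eq_star_mul_self.mp hQ.nonneg
  have := posSemidef_conjTranspose_mul_self (fromBlocks B 0 0 C)
  rw [fromBlocks_conjTranspose, fromBlocks_multiply] at this
  unfold Blk
  simpa [star_eq_conjTranspose] using this

omit [DecidableEq n] [DecidableEq m] in
lemma Blk.gram (G G' : Matrix n m ℂ) : Blk (G * Gᴴ) (G' * G'ᴴ) (G * G'ᴴ) := by
  have := posSemidef_self_mul_conjTranspose (fromRows G G')
  rw [conjTranspose_fromRows_eq_fromCols_conjTranspose, fromRows_mul_fromCols] at this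
  unfold Blk
  simpa using this

lemma ex_normal {a : Matrix n n ℂ} (ha : a.PosDef) :
    ∃ S B : Matrix n n ℂ, Sᴴ * a * S = 1 ∧ S * B = 1 := by
  obtain ⟨B, rfl⟩ := CStarAlgebra.nonneg_iff_eq_star_mul_self.mp ha.posSemidef.nonneg
  have hu := ha.isUnit
  rw [isUnit_iff_isUnit_det, det_mul] at hu
  have hB : IsUnit B.det := isUnit_of_mul_isUnit_right hu
  refine ⟨B⁻¹, B, ?_, nonsing_inv_mul _ hB⟩
  rw [star_eq_conjTranspose]
  calc B⁻¹ᴴ * (Bᴴ * B) * B⁻¹ = (B * B⁻¹)ᴴ * (B * B⁻¹) := by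
        rw [conjTranspose_mul]; simp only [Matrix.mul_assoc]
    _ = 1 := by rw [mul_nonsing_inv _ hB]; simp

lemma geo_pd {a0 a1 : Matrix n n ℂ} {b0 b1 : Matrix m m ℂ} (ha0 : a0.PosDef) (ha1 : a1.PosSemidef)
    (hb0 : b0.PosDef) (hb1 : b1.PosSemidef) {H : Matrix (n × m) (n × m) ℂ} (hH : H.IsHermitian)
    (h : Blk (a0 ⊗ₖ b0 + a0 ⊗ₖ b0) (a1 ⊗ₖ b1 + a1 ⊗ₖ b1) H) :
    (a0 ⊗ₖ b1 + a1 ⊗ₖ b0 - H).PosSemidef := by
  obtain ⟨S, B, hS, hSB⟩ := ex_normal ha0
  obtain ⟨T, C, hT, hTC⟩ := ex_normal hb0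
  set R := S ⊗ₖ T with hR
  have key : ∀ (a : Matrix n n ℂ) (b : Matrix m m ℂ),
      Rᴴ * (a ⊗ₖ b) * R = (Sᴴ * a * S) ⊗ₖ (Tᴴ * b * T) := by
    intro a b
    rw [hR, conjTranspose_kronecker, ← mul_kronecker_mul, ← mul_kronecker_mul]
  set D := Sᴴ * a1 * S with hD
  set E := Tᴴ * b1 * T with hE
  have hDp : D.PosSemidef := ha1.conjTranspose_mul_mul_same S
  have hEp : E.PosSemidef := hb1.conjTranspose_mul_mul_same T
  have h1 := h.conj R
  set H' := Rᴴ * H * R with hH'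
  have hH'h : H'.IsHermitian := isHermitian_conjTranspose_mul_mul R hH
  rw [Matrix.mul_add, Matrix.add_mul, Matrix.mul_add, Matrix.add_mul, key, key, hS, hT,
    one_kronecker_one] at h1
  have h2 := h1.test (-H') (1 + 1 : Matrix (n × m) (n × m) ℂ)
  set U : Matrix (n × m) (n × m) ℂ := D ⊗ₖ (1 : Matrix m m ℂ) with hU
  set V : Matrix (n × m) (n × m) ℂ := (1 : Matrix n n ℂ) ⊗ₖ E with hV
  have hUV : U * V = D ⊗ₖ E := by rw [hU, hV, ← mul_kronecker_mul]; simp
  have hVU : V * U = D ⊗ₖ E := by rw [hU, hV, ← mul_kronecker_mul]; simp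
  have hUp : U.PosSemidef := hDp.kronecker PosSemidef.one
  have hVp : V.PosSemidef := PosSemidef.one.kronecker hEp
  have h3 := posSemidef_conjTranspose_mul_self (U - V)
  rw [(hUp.1.sub hVp.1).eq] at h3
  have h4 : ((V + U) * (V + U) - H' * H').PosSemidef := by
    have h5 := (h2.smul (show (0 : ℝ) ≤ 1 / 2 by norm_num)).add h3
    convert h5 using 1
    rw [conjTranspose_neg, hH'h.eq, conjTranspose_add, conjTranspose_one, ← hD, ← hE]
    simp only [Matrix.add_mul, Matrix.mul_add, Matrix.sub_mul, Matrix.mul_sub, Matrix.one_mul,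
      Matrix.mul_one, Matrix.neg_mul, Matrix.mul_neg, hUV, hVU, neg_neg]
    module
  have h6 := le_of_sq_le (hVp.add hUp) hH'h h4
  have h7 := h6.conjTranspose_mul_mul_same (B ⊗ₖ C)
  have hRB : R * (B ⊗ₖ C) = 1 := by rw [hR, ← mul_kronecker_mul, hSB, hTC, one_kronecker_one]
  have e : V + U - H' = Rᴴ * (a0 ⊗ₖ b1 + a1 ⊗ₖ b0 - H) * R := by
    rw [Matrix.mul_sub, Matrix.sub_mul, Matrix.mul_add, Matrix.add_mul, key, key, hS, hT]
  rw [e] at h7
  convert h7 using 1
  calc a0 ⊗ₖ b1 + a1 ⊗ₖ b0 - H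
      = (R * (B ⊗ₖ C))ᴴ * (a0 ⊗ₖ b1 + a1 ⊗ₖ b0 - H) * (R * (B ⊗ₖ C)) := by rw [hRB]; simp
    _ = _ := by rw [conjTranspose_mul]; simp only [Matrix.mul_assoc]

lemma geo {a0 a1 : Matrix n n ℂ} {b0 b1 : Matrix m m ℂ} (ha0 : a0.PosSemidef)
    (ha1 : a1.PosSemidef) (hb0 : b0.PosSemidef) (hb1 : b1.PosSemidef)
    {H : Matrix (n × m) (n × m) ℂ} (hH : H.IsHermitian)
    (h : Blk (a0 ⊗ₖ b0 + a0 ⊗ₖ b0) (a1 ⊗ₖ b1 + a1 ⊗ₖ b1) H) (w : n × m → ℂ) :
    (star w ⬝ᵥ H *ᵥ w).re ≤ (star w ⬝ᵥ (a0 ⊗ₖ b1) *ᵥ w).re + (star w ⬝ᵥ (a1 ⊗ₖ b0) *ᵥ w).re := by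
  set c := (star w ⬝ᵥ ((1 : Matrix n n ℂ) ⊗ₖ b1) *ᵥ w).re
    + (star w ⬝ᵥ (a1 ⊗ₖ (1 : Matrix m m ℂ)) *ᵥ w).re with hc
  have main : ∀ δ : ℝ, 0 < δ → (star w ⬝ᵥ H *ᵥ w).re ≤
      (star w ⬝ᵥ (a0 ⊗ₖ b1) *ᵥ w).re + (star w ⬝ᵥ (a1 ⊗ₖ b0) *ᵥ w).re + δ * c := by
    intro δ hδ
    have hδ' : (0 : ℂ) < δ := by exact_mod_cast hδ
    have p1 : ((δ : ℂ) • (1 : Matrix n n ℂ)).PosDef := PosDef.one.smul hδ'
    have p2 : ((δ : ℂ) • (1 : Matrix m m ℂ)).PosDef := PosDef.one.smul hδ'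
    have hA := PosDef.posSemidef_add ha0 p1
    have hB := PosDef.posSemidef_add hb0 p2
    have hd := (p1.posSemidef.kronecker hB.posSemidef).add (ha0.kronecker p2.posSemidef)
    have h' := h.add (Blk.diag (hd.add hd) PosSemidef.zero)
    rw [add_zero, add_zero] at h'
    have e : a0 ⊗ₖ b0 + a0 ⊗ₖ b0 +
        (((δ : ℂ) • (1 : Matrix n n ℂ)) ⊗ₖ (b0 + (δ : ℂ) • (1 : Matrix m m ℂ)) +
          a0 ⊗ₖ ((δ : ℂ) • (1 : Matrix m m ℂ)) +
        (((δ : ℂ) • (1 : Matrix n n ℂ)) ⊗ₖ (b0 + (δ : ℂ) • (1 : Matrix m m ℂ)) +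
          a0 ⊗ₖ ((δ : ℂ) • (1 : Matrix m m ℂ)))) =
        (a0 + (δ : ℂ) • (1 : Matrix n n ℂ)) ⊗ₖ (b0 + (δ : ℂ) • (1 : Matrix m m ℂ)) +
        (a0 + (δ : ℂ) • (1 : Matrix n n ℂ)) ⊗ₖ (b0 + (δ : ℂ) • (1 : Matrix m m ℂ)) := by
      simp only [add_kronecker, kronecker_add]; abel
    rw [e] at h'
    have := (geo_pd hA ha1 hB hb1 hH h').dotProduct_mulVec_nonneg w
    rw [add_kronecker, kronecker_add, smul_kronecker, kronecker_smul] at this
    simp only [sub_mulVec, add_mulVec, smul_mulVec, dotProduct_sub, dotProduct_add,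
      dotProduct_smul, smul_eq_mul] at this
    have := (Complex.nonneg_iff.mp this).1
    simp only [Complex.sub_re, Complex.add_re, Complex.re_ofReal_mul] at this
    rw [hc]; linarith
  by_contra hcon
  push Not at hcon
  set g := (star w ⬝ᵥ H *ᵥ w).re -
    ((star w ⬝ᵥ (a0 ⊗ₖ b1) *ᵥ w).re + (star w ⬝ᵥ (a1 ⊗ₖ b0) *ᵥ w).re) with hg
  have hg0 : 0 < g := by rw [hg]; linarith
  have h1 := main (g / (2 * (|c| + 1))) (by positivity)
  have h2 : g / (2 * (|c| + 1)) * c ≤ g / 2 := by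
    have : c ≤ |c| + 1 := by linarith [le_abs_self c]
    calc g / (2 * (|c| + 1)) * c ≤ g / (2 * (|c| + 1)) * (|c| + 1) :=
          mul_le_mul_of_nonneg_left this (by positivity)
      _ = g / 2 := by field_simp
  linarith

end Vale.Agent.P372
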