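import Vale.Agent.P372.Example

open Matrix
open scoped ComplexOrder MatrixOrder Kronecker

namespace Vale.Agent.P372

variable {ι κ A B C D A' B' E : Type} [Fintype ι] [Fintype κ] [Fintype C] [Fintype D]

def Rep (K : ι → Matrix A C ℂ) (L : κ → Matrix B D ℂ) (w : C × D → ℂ)
    (ρ : A × B → A × B → ℂ) : Prop :=
  ∀ u u', ρ u u' = ∑ e, (kr K L e *ᵥ w) u * star ((kr K L e *ᵥ w) u')

lemma sum_pair {N : ℕ} {X Y : Type} [Fintype X] [Fintype Y] (f : Fin N → X × Y → ℂ) :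
    ∑ c : (Fin N → X) × (Fin N → Y), ∏ i, f i (c.1 i, c.2 i) = ∏ i, ∑ x, f i x := by
  classical
  rw [Finset.prod_univ_sum, Fintype.piFinset_univ,
    ← (Equiv.arrowProdEquivProdArrow (Fin N) (fun _ => X) (fun _ => Y)).sum_comp]
  rfl

lemma Rep.pw {K : ι → Matrix A C ℂ} {L : κ → Matrix B D ℂ} {w : C × D → ℂ}
    {ρ : A × B → A × B → ℂ} (h : Rep K L w ρ) (N : ℕ) :
    Rep (pw K N) (pw L N) (fun c => ∏ i, w (c.1 i, c.2 i))
      (fun u u' => ∏ i, ρ (u.1 i, u.2 i) (u'.1 i, u'.2 i)) := by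
  intro u u'
  have h1 : ∀ (e : (Fin N → ι) × (Fin N → κ)) (u : (Fin N → A) × (Fin N → B)),
      (kr (P372.pw K N) (P372.pw L N) e *ᵥ fun c => ∏ i, w (c.1 i, c.2 i)) u
        = ∏ i, (kr K L (e.1 i, e.2 i) *ᵥ w) (u.1 i, u.2 i) := by
    intro e u
    simp only [mulVec, dotProduct]
    rw [← sum_pair]
    refine Finset.sum_congr rfl fun c _ => ?_
    simp only [kr, P372.pw, kroneckerMap_apply, Matrix.of_apply, Finset.prod_mul_distrib]
  simp only [h1, h _ _]
  rw [← sum_pair]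
  refine Finset.sum_congr rfl fun e _ => ?_
  rw [star_prod, Finset.prod_mul_distrib]

lemma Rep.sub {K : ι → Matrix A C ℂ} {L : κ → Matrix B D ℂ} {w : C × D → ℂ}
    {ρ : A × B → A × B → ℂ} (h : Rep K L w ρ) (f : A' → A) (g : B' → B) :
    Rep (fun e => (K e).submatrix f id) (fun e => (L e).submatrix g id) w
      (fun u u' => ρ (f u.1, g u.2) (f u'.1, g u'.2)) := fun u u' => h _ _

lemma Rep.trace [Fintype A] [Fintype B] [Fintype E] {K : ι → Matrix A C ℂ}
    {L : κ → Matrix B D ℂ} {w : C × D → ℂ} {V : Matrix (A × B) E ℂ}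
    (h : Rep K L w (V * Vᴴ)) (X : Matrix (A × B) (A × B) ℂ) :
    (Vᴴ * X * V).trace = star w ⬝ᵥ Th (kr K L) X *ᵥ w := by
  have h1 : V * Vᴴ = ∑ e, vecMulVec (kr K L e *ᵥ w) (star (kr K L e *ᵥ w)) := by
    ext u u'
    rw [h u u', Matrix.sum_apply]
    rfl
  rw [trace_mul_comm, ← Matrix.mul_assoc, h1, Finset.sum_mul, trace_sum, Th, sum_mulVec,
    dotProduct_sum]
  refine Finset.sum_congr rfl fun e _ => ?_
  rw [vecMulVec_mul, trace_vecMulVec, dotProduct_comm, ← dotProduct_mulVec, star_mulVec,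
    ← dotProduct_mulVec, mulVec_mulVec, mulVec_mulVec]

lemma psd_blockDiagonal {o m : Type} [Fintype o] [DecidableEq o] [Fintype m]
    {M : o → Matrix m m ℂ} (h : ∀ i, (M i).PosSemidef) : (blockDiagonal M).PosSemidef := by
  classical
  choose B hB using fun i => CStarAlgebra.nonneg_iff_eq_star_mul_self.mp (h i).nonneg
  have : blockDiagonal M = (blockDiagonal B)ᴴ * blockDiagonal B := by
    rw [blockDiagonal_conjTranspose, ← blockDiagonal_mul]
    congr 1; funext i; exact hB i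
  rw [this]
  exact posSemidef_conjTranspose_mul_self _

/-- squared norm of the unnormalised state -/
noncomputable def ZZ : ℝ := ∑ e, ∑ z, Complex.normSq (vv e z)

lemma ZZ_pos : 0 < ZZ := by
  obtain ⟨e, z, h⟩ := vv_ne
  refine Finset.sum_pos' (fun e _ => Finset.sum_nonneg fun z _ => Complex.normSq_nonneg _)
    ⟨e, Finset.mem_univ _, Finset.sum_pos' (fun z _ => Complex.normSq_nonneg _)
      ⟨z, Finset.mem_univ _, Complex.normSq_pos.mpr h⟩⟩

noncomputable def ss : ℂ := ((Real.sqrt ZZ)⁻¹ : ℝ)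

lemma ss_sq : ss * star ss * ZZ = 1 := by
  have := ZZ_pos
  have h2 : (Real.sqrt ZZ)⁻¹ * (Real.sqrt ZZ)⁻¹ * ZZ = 1 := by
    have := Real.sqrt_pos.mpr this
    field_simp
    exact (Real.sq_sqrt ZZ_pos.le).symm
  rw [ss, Complex.star_def, Complex.conj_ofReal]
  exact_mod_cast h2

noncomputable def VV : Matrix (Fin 6 × Fin 10) ((Fin 2 → Fin 6) × (Fin 3 → Fin 6)) ℂ :=
  Matrix.of fun z e => ss * vv e z

noncomputable def rho : Matrix (Fin 6 × Fin 10) (Fin 6 × Fin 10) ℂ := VV * VVᴴ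

lemma rho_psd : rho.PosSemidef := posSemidef_self_mul_conjTranspose _

lemma rho_apply (u u' : Fin 6 × Fin 10) :
    rho u u' = ∑ e, ss * vv e u * star (ss * vv e u') := by
  simp only [rho, Matrix.mul_apply, VV, conjTranspose_apply, Matrix.of_apply]

lemma rho_trace : rho.trace = 1 := by
  rw [← ss_sq, ZZ]
  simp only [Matrix.trace, Matrix.diag, rho_apply]
  rw [Finset.sum_comm]
  push_cast
  simp only [Finset.mul_sum]
  refine Finset.sum_congr rfl fun e _ => Finset.sum_congr rfl fun z _ => ?_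
  rw [← Complex.mul_conj, star_mul', Complex.star_def]
  ring

lemma rho_rep : Rep KA KB (ss • eps) rho := by
  intro u u'
  rw [rho_apply]
  simp only [mulVec_smul, Pi.smul_apply, smul_eq_mul, vv]

lemma rho_uu (i : Fin 15) : star (uu i) ⬝ᵥ rho *ᵥ uu i = 0 := by
  have : uu i ᵥ* VV = 0 := by
    funext e
    have := uu_vv i e
    simp only [vecMul, dotProduct, VV, Matrix.of_apply, Pi.zero_apply]
    have h2 : ∑ z, uu i z * (ss * vv e z) = ss * ∑ z, uu i z * vv e z := by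
      rw [Finset.mul_sum]; exact Finset.sum_congr rfl fun z _ => by ring
    rw [h2, this, mul_zero]
  rw [rho, uu_star, ← mulVec_mulVec, dotProduct_mulVec, this, zero_dotProduct]

lemma rho_not_sep {k : ℕ} (p : Fin k → ℝ) (α : Fin k → Matrix (Fin 6) (Fin 6) ℂ)
    (β : Fin k → Matrix (Fin 10) (Fin 10) ℂ) (hp : ∀ i, 0 ≤ p i) (hs : ∑ i, p i = 1)
    (hα : ∀ i, (α i).PosSemidef ∧ (α i).trace = 1)
    (hβ : ∀ i, (β i).PosSemidef ∧ (β i).trace = 1) :
    rho ≠ ∑ i, (p i : ℂ) • (α i ⊗ₖ β i) := by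
  intro h
  obtain ⟨j, hj⟩ : ∃ j, p j ≠ 0 := by
    by_contra hc; push Not at hc
    simp [hc] at hs
  refine not_prod (hα j).2 (hβ j).2 fun i => ?_
  have h1 := rho_uu i
  rw [h, sum_mulVec, dotProduct_sum] at h1
  have hps : ∀ l, (α l ⊗ₖ β l).PosSemidef := fun l => (hα l).1.kronecker (hβ l).1
  have h2 := (Finset.sum_eq_zero_iff_of_nonneg (fun l _ =>
    ((hps l).smul (show (0 : ℂ) ≤ p l by exact_mod_cast hp l)).dotProduct_mulVec_nonneg
      (uu i))).mp h1 j (Finset.mem_univ _)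
  rw [smul_mulVec, dotProduct_smul, smul_eq_mul, mul_eq_zero] at h2
  exact ((hps j).dotProduct_mulVec_zero_iff _).mp
    (h2.resolve_left (by exact_mod_cast hj))

end Vale.Agent.P372
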